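import Vale.Agent.P096.Comm

/-! Lipschitz continuity of commutants, and the strong Kadison-Kastler conclusion for pairs that are
linearly close or complemented, directly or after passing to commutants. -/

universe u

open Vale.Agent.P096 in
theorem Vale.Agent.Results.P096.Commutant.result :
    (∃ C : ℝ, ∀ (H : Type u) [NormedAddCommGroup H] [InnerProductSpace ℂ H] [CompleteSpace H]
      (M N : VonNeumannAlgebra H), kk M.commutant N.commutant ≤ C * kk M N ∧
        ∀ (L : Type u) [NormedAddCommGroup L] [InnerProductSpace ℂ L] [CompleteSpace L]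
          (ρ : (H →L[ℂ] H) →⋆ₐ[ℂ] (L →L[ℂ] L)),
          kkc ρ M N ≤ C * kk M N ∧ kkc ρ M.commutant N.commutant ≤ C * kk M N) ∧
    ∀ ε : ℝ, 0 < ε →
      (∃ δ : ℝ, 0 < δ ∧ ∀ (H : Type u) [NormedAddCommGroup H] [InnerProductSpace ℂ H] [CompleteSpace H]
        (M N : VonNeumannAlgebra H), kk M N < δ →
          LinClose M N δ ∨ LinClose M.commutant N.commutant δ → ConjNear M N ε) ∧
      ∀ K : ℝ, ∃ δ : ℝ, 0 < δ ∧ ∀ (H : Type u) [NormedAddCommGroup H] [InnerProductSpace ℂ H]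
        [CompleteSpace H] (M N : VonNeumannAlgebra H), kk M N < δ →
          Compl M N K ∨ Compl M.commutant N.commutant K → ConjNear M N ε := by
  have c0 := cc_pos
  have sm : ∀ δ : ℝ, 0 < δ → δ / (2 * cc + 1) ≤ δ := fun δ h => div_le_self h.le (by linarith)
  have cm : ∀ (H : Type u) [NormedAddCommGroup H] [InnerProductSpace ℂ H] [CompleteSpace H]
      (M N : VonNeumannAlgebra H) (δ : ℝ), 0 < δ → kk M N < δ / (2 * cc + 1) →
        kk M.commutant N.commutant < δ := fun H _ _ _ M N δ h d => by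
    have k0 : 0 ≤ kk M N := Metric.hausdorffDist_nonneg
    rw [lt_div_iff₀ (by positivity)] at d
    linarith [kk_comm_le M N]
  refine ⟨⟨(2 * cc + 1) ^ 2, fun H _ _ _ M N => ?_⟩, fun ε hε => ⟨?_, fun K => ?_⟩⟩
  · have k0 : 0 ≤ kk M N := Metric.hausdorffDist_nonneg
    have k1 : 2 * cc * kk M N ≤ (2 * cc + 1) ^ 2 * kk M N :=
      mul_le_mul_of_nonneg_right (by nlinarith) k0
    refine ⟨(kk_comm_le M N).trans k1, fun L _ _ _ ρ => ⟨(kkc_le ρ M N).trans k1,
      (kkc_le ρ _ _).trans ((mul_le_mul_of_nonneg_left (kk_comm_le M N) (by positivity)).trans ?_)⟩⟩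
    rw [← mul_assoc]
    exact mul_le_mul_of_nonneg_right (by nlinarith) k0
  · obtain ⟨δ, δ0, h⟩ := (linear.{u} ε hε).1
    refine ⟨δ / (2 * cc + 1), by positivity, fun H _ _ _ M N d l => ?_⟩
    have mono : ∀ P Q : VonNeumannAlgebra H, LinClose P Q (δ / (2 * cc + 1)) → LinClose P Q δ :=
      fun P Q ⟨T, hT⟩ => ⟨T, fun x hx => ⟨(hT x hx).1, (hT x hx).2.trans
        (mul_le_mul_of_nonneg_right (sm δ δ0) (norm_nonneg _))⟩⟩
    exact l.elim (fun l => h H M N (d.trans_le (sm δ δ0)) (mono _ _ l))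
      fun l => (h H _ _ (cm H M N δ δ0 d) (mono _ _ l)).of_comm
  · obtain ⟨δ, δ0, h⟩ := (linear.{u} ε hε).2 K
    exact ⟨δ / (2 * cc + 1), by positivity, fun H _ _ _ M N d l => l.elim
      (h H M N (d.trans_le (sm δ δ0))) fun l => (h H _ _ (cm H M N δ δ0 d) l).of_comm⟩
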